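import Vale.Agent.P163.Perc

namespace Vale.Agent.Results.P163.Full

open MeasureTheory Filter Vale.Agent.P163
open scoped RealInnerProductSpace

theorem result (n : ℕ) (hn : 3 ≤ n) (β : ℝ) (hβ : 0 < β) :
    ∃ C m : ℝ, 0 < m ∧ ∀ μ : Measure (Config n), IsInfiniteVolumeState n β μ → ∀ x y : ℤ × ℤ,
      ∫ σ, ⟪(σ x : EuclideanSpace ℝ (Fin n)), (σ y : EuclideanSpace ℝ (Fin n))⟫ ∂μ ≤
        C * Real.exp (-m * Real.sqrt (((x.1 : ℝ) - y.1) ^ 2 + ((x.2 : ℝ) - y.2) ^ 2)) := by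
  have : NeZero n := ⟨by omega⟩
  obtain ⟨ρ, hρ, h⟩ := finite_decay hn hβ.le
  refine ⟨n * Real.exp 1, 1 / (2 * ρ), by positivity, fun μ ⟨_, lo, hi, per, h1, h2⟩ x y => ?_⟩
  have h3 : Real.sqrt (((x.1 : ℝ) - y.1) ^ 2 + ((x.2 : ℝ) - y.2) ^ 2) ≤ 2 * dist y x := by
    have e1 : |(y.1 : ℝ) - x.1| ≤ dist y x := le_max_left (dist y.1 x.1) _
    have e2 : |(y.2 : ℝ) - x.2| ≤ dist y x := le_max_right _ (dist y.2 x.2)
    refine Real.sqrt_le_iff.mpr ⟨by positivity, ?_⟩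
    nlinarith [abs_le.mp e1, abs_le.mp e2]
  refine (le_of_tendsto (h2 {x, y}
    (fun τ => ⟪(τ ⟨x, by simp⟩ : EuclideanSpace ℝ (Fin n)), (τ ⟨y, by simp⟩ : EuclideanSpace ℝ _)⟫)
    (by fun_prop)) (((ball x (⌈dist y x⌉₊ + 1)).eventually_all.mpr fun w _ => h1 w).mono
    fun k hk => h _ x y fun e he ht => ?_)).trans ?_
  · have h4 : ∀ w v : ℤ × ℤ, dist w x ≤ dist y x → dist v w ≤ 1 → v ∈ box (lo k) (hi k) :=
      fun w v h5 h6 => hk v (mem_ball.mpr (by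
        push_cast
        linarith [dist_triangle v w x, Nat.le_ceil (dist y x)]))
    simp only [box, Finset.mem_product, Finset.mem_Icc] at h4
    obtain h5 | h5 | ⟨-, h5⟩ := (Finset.mem_filter.mp he).2
    · exact Or.inl h5
    · exact Or.inr h5
    exfalso
    rcases ht with ht | ht
    · have h6 := h4 _ (e.1.1 + 1, e.1.2) ht (by simp [Prod.dist_eq])
      have h7 := h4 _ (e.1.1, e.1.2 + 1) ht (by simp [Prod.dist_eq])
      omega
    · have h6 := h4 _ (e.2.1 - 1, e.2.2) ht (by simp [Prod.dist_eq])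
      have h7 := h4 _ (e.2.1, e.2.2 - 1) ht (by simp [Prod.dist_eq])
      simp only [Prod.ext_iff] at h5
      omega
  · rw [mul_assoc, ← Real.exp_add]
    gcongr
    rw [sub_eq_add_neg, neg_mul, add_le_add_iff_left, neg_le_neg_iff, one_div_mul_eq_div,
      div_le_div_iff₀ (by positivity) hρ]
    nlinarith

end Vale.Agent.Results.P163.Full
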